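import Vale.Agent.P171.Final

namespace Vale.Agent.Results.P171.Transition

open Vale.Agent.P171

theorem result : ∃ φ : ℝ → ℝ, Measurable φ ∧ LocBdd φ ∧ Stable φ ∧ Tempered φ ∧
    ∃ β : ℝ, 0 < β ∧
      (∀ L : ℝ, 0 ≤ L → ∀ N : ℕ,
        MeasureTheory.IntegrableOn (boltz φ β N) (Set.univ.pi fun _ : Fin N => box L)) ∧
      (∀ z : ℝ, 0 < z → ∀ L : ℝ, 0 ≤ L → Summable fun N : ℕ => z ^ N * canon φ β L N) ∧
      ∃ P : ℝ → ℝ,
        (∀ z : ℝ, 0 < z →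
          Filter.Tendsto (fun L : ℝ => Real.log (grand φ β z L) / L ^ 3) Filter.atTop
            (nhds (P z))) ∧
        ∃ z : ℝ, 0 < z ∧ ¬ DifferentiableAt ℝ P z :=
  Vale.Agent.P171.main

end Vale.Agent.Results.P171.Transition
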